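import Mathlib

/-!
Riemann sums over the lattice, in the form needed for energies of lattice fields:
if `t ^ 2 * F t (floor (t z)) → f z` for almost every `z`, with `|F t| ≤ M / t ^ 2` and support in a
box of size `R t`, then `∑ F t → ∫ f`.
-/

open MeasureTheory Filter Topology Set

namespace Vale.Agent.P159.T1.H407

/-- the lattice point below and to the left of `t z` -/
noncomputable def fl (t : ℝ) (z : ℝ × ℝ) : ℤ × ℤ := (⌊t * z.1⌋, ⌊t * z.2⌋)

/-- the cell of a lattice point -/
def cell (t : ℝ) (P : ℤ × ℤ) : Set (ℝ × ℝ) :=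
  Ico ((P.1 : ℝ) / t) ((P.1 + 1 : ℝ) / t) ×ˢ Ico ((P.2 : ℝ) / t) ((P.2 + 1 : ℝ) / t)

lemma mem_cell {t : ℝ} (ht : 0 < t) (P : ℤ × ℤ) (z : ℝ × ℝ) : z ∈ cell t P ↔ fl t z = P := by
  unfold cell fl
  rw [mem_prod, mem_Ico, mem_Ico, Prod.ext_iff, Int.floor_eq_iff, Int.floor_eq_iff,
    div_le_iff₀ ht, lt_div_iff₀ ht, div_le_iff₀ ht, lt_div_iff₀ ht, mul_comm z.1, mul_comm z.2]

lemma measurableSet_cell (t : ℝ) (P : ℤ × ℤ) : MeasurableSet (cell t P) :=
  measurableSet_Ico.prod measurableSet_Ico

lemma volume_cell {t : ℝ} (ht : 0 < t) (P : ℤ × ℤ) :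
    volume (cell t P) = ENNReal.ofReal (1 / t ^ 2) := by
  unfold cell
  rw [Measure.volume_eq_prod, Measure.prod_prod, Real.volume_Ico, Real.volume_Ico]
  have h : ∀ a : ℝ, (a + 1) / t - a / t = 1 / t := fun a => by ring
  rw [h, h, ← ENNReal.ofReal_mul (by positivity)]
  congr 1
  field_simp

lemma volume_real_cell {t : ℝ} (ht : 0 < t) (P : ℤ × ℤ) :
    volume.real (cell t P) = 1 / t ^ 2 := by
  rw [Measure.real, volume_cell ht, ENNReal.toReal_ofReal (by positivity)]

/-- the integral of the step function -/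
lemma integral_step {t : ℝ} (ht : 0 < t) (F : ℤ × ℤ → ℝ) (S : Finset (ℤ × ℤ))
    (hS : ∀ P, F P ≠ 0 → P ∈ S) :
    ∫ z, t ^ 2 * F (fl t z) = ∑ P ∈ S, F P := by
  have h1 : (fun z : ℝ × ℝ => t ^ 2 * F (fl t z)) = fun z => ∑ P ∈ S,
      (cell t P).indicator (fun _ => t ^ 2 * F P) z := by
    funext z
    have h2 : ∀ P ∈ S, (cell t P).indicator (fun _ => t ^ 2 * F P) z =
        if P = fl t z then t ^ 2 * F (fl t z) else 0 := by
      intro P _
      by_cases h : P = fl t z
      · rw [if_pos h, indicator_of_mem ((mem_cell ht P z).2 h.symm), h]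
      · rw [if_neg h, indicator_of_notMem (fun h' => h ((mem_cell ht P z).1 h').symm)]
    rw [Finset.sum_congr rfl h2, Finset.sum_ite_eq' S (fl t z)]
    split_ifs with h
    · rfl
    · by_contra hne
      exact h (hS _ fun h0 => hne (by rw [h0, mul_zero]))
  rw [h1, integral_finsetSum]
  · refine Finset.sum_congr rfl fun P _ => ?_
    rw [integral_indicator (measurableSet_cell t P), setIntegral_const, volume_real_cell ht,
      smul_eq_mul]
    field_simp
  · intro P _
    refine (integrable_indicator_iff (measurableSet_cell t P)).2 ?_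
    exact integrableOn_const (by rw [volume_cell ht]; exact ENNReal.ofReal_ne_top)

/-- **Riemann sums over the lattice.** -/
theorem riemann {ι : Type*} {l : Filter ι} [l.IsCountablyGenerated] {t : ι → ℝ}
    (ht : Tendsto t l atTop) {F : ι → ℤ × ℤ → ℝ} {S : ι → Finset (ℤ × ℤ)} {M R : ℝ}
    {f : ℝ × ℝ → ℝ} (hM : ∀ᶠ i in l, ∀ P, |F i P| ≤ M / t i ^ 2)
    (hS : ∀ᶠ i in l, ∀ P, F i P ≠ 0 → P ∈ S i)
    (hR : ∀ᶠ i in l, ∀ P, F i P ≠ 0 → |(P.1 : ℝ)| ≤ R * t i ∧ |(P.2 : ℝ)| ≤ R * t i)
    (hf : ∀ᵐ z : ℝ × ℝ, Tendsto (fun i => t i ^ 2 * F i (fl (t i) z)) l (𝓝 (f z))) :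
    Tendsto (fun i => ∑ P ∈ S i, F i P) l (𝓝 (∫ z, f z)) := by
  have ht0 : ∀ᶠ i in l, 1 ≤ t i := ht.eventually (eventually_ge_atTop 1)
  set B : Set (ℝ × ℝ) := Icc (-(R + 1)) (R + 1) ×ˢ Icc (-(R + 1)) (R + 1) with hB
  have hBm : MeasurableSet B := measurableSet_Icc.prod measurableSet_Icc
  have hBv : volume B ≠ ⊤ := by
    rw [hB, Measure.volume_eq_prod, Measure.prod_prod, Real.volume_Icc]
    exact ENNReal.mul_ne_top ENNReal.ofReal_ne_top ENNReal.ofReal_ne_top
  have key : Tendsto (fun i => ∫ z, t i ^ 2 * F i (fl (t i) z)) l (𝓝 (∫ z, f z)) := by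
    refine tendsto_integral_filter_of_dominated_convergence
      (B.indicator fun _ => |M|) ?_ ?_ ?_ hf
    · filter_upwards [ht0] with i hi
      refine Measurable.aestronglyMeasurable ?_
      refine measurable_const.mul ?_
      have h1 : Measurable (fl (t i)) := by
        unfold fl
        exact (Int.measurable_floor.comp (measurable_const.mul measurable_fst)).prodMk
          (Int.measurable_floor.comp (measurable_const.mul measurable_snd))
      exact (measurable_of_countable (F i)).comp h1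
    · filter_upwards [ht0, hM, hR] with i hi h1 h2
      refine Eventually.of_forall fun z => ?_
      have hi0 : 0 < t i := by linarith
      by_cases h0 : F i (fl (t i) z) = 0
      · rw [h0, mul_zero, norm_zero]
        exact indicator_nonneg (fun _ _ => abs_nonneg M) z
      · have hz : z ∈ B := by
          obtain ⟨h3, h4⟩ := h2 _ h0
          have h5 : ∀ x : ℝ, |((⌊t i * x⌋ : ℤ) : ℝ)| ≤ R * t i → x ∈ Icc (-(R + 1)) (R + 1) := by
            intro x hx
            have h6 := abs_le.1 hx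
            have h7 := Int.floor_le (t i * x)
            have h8 := Int.lt_floor_add_one (t i * x)
            constructor
            · by_contra hlt
              push Not at hlt
              have : t i * x < t i * (-(R + 1)) := by nlinarith
              have : t i * (-(R + 1)) = -(R * t i) - t i := by ring
              linarith
            · by_contra hlt
              push Not at hlt
              have : t i * (R + 1) < t i * x := by nlinarith
              have : t i * (R + 1) = (R * t i) + t i := by ring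
              linarith
          exact ⟨h5 _ h3, h5 _ h4⟩
        rw [indicator_of_mem hz, Real.norm_eq_abs, abs_mul, abs_of_pos (pow_pos hi0 2)]
        calc t i ^ 2 * |F i (fl (t i) z)| ≤ t i ^ 2 * (M / t i ^ 2) :=
              mul_le_mul_of_nonneg_left (h1 _) (by positivity)
          _ = M := by field_simp
          _ ≤ |M| := le_abs_self M
    · exact (integrable_indicator_iff hBm).2 (integrableOn_const hBv)
  refine key.congr' ?_
  filter_upwards [ht0, hS] with i hi h1
  exact integral_step (by linarith) (F i) (S i) h1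

/-- the point `(floor (t z) + u) / t` is close to `z` -/
lemma fl_tendsto {ι : Type*} {l : Filter ι} {t : ι → ℝ}
    (ht : Tendsto t l atTop) (z : ℝ × ℝ) (u : ℝ × ℝ) :
    Tendsto (fun i => ((((fl (t i) z).1 : ℝ) + u.1) / t i, (((fl (t i) z).2 : ℝ) + u.2) / t i)) l
      (𝓝 z) := by
  have ht0 : ∀ᶠ i in l, 0 < t i := ht.eventually (eventually_gt_atTop 0)
  have hinv : Tendsto (fun i => (t i)⁻¹) l (𝓝 0) := ht.inv_tendsto_atTop
  have h : ∀ x a : ℝ, Tendsto (fun i => (((⌊t i * x⌋ : ℤ) : ℝ) + a) / t i) l (𝓝 x) := by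
    intro x a
    have h1 : Tendsto (fun i => x + (a - Int.fract (t i * x)) * (t i)⁻¹) l (𝓝 (x + 0)) := by
      refine tendsto_const_nhds.add ?_
      refine bdd_le_mul_tendsto_zero' (|a| + 1) (Eventually.of_forall fun i => ?_) hinv
      have h2 := Int.fract_nonneg (t i * x)
      have h3 := Int.fract_lt_one (t i * x)
      calc |a - Int.fract (t i * x)| ≤ |a| + |Int.fract (t i * x)| := abs_sub _ _
        _ ≤ |a| + 1 := by rw [abs_of_nonneg h2]; linarith
    rw [add_zero] at h1
    refine h1.congr' ?_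
    filter_upwards [ht0] with i hi
    have h4 : ((⌊t i * x⌋ : ℤ) : ℝ) = t i * x - Int.fract (t i * x) := by
      rw [← Int.self_sub_fract]
    rw [h4]
    field_simp
    ring
  exact (h z.1 u.1).prodMk_nhds (h z.2 u.2)

/-- **Difference quotients on the lattice** converge at every point of differentiability. -/
theorem diff_quot {ι : Type*} {l : Filter ι} {t : ι → ℝ} (ht : Tendsto t l atTop)
    {φ : ℝ × ℝ → ℝ} {φ' : ℝ × ℝ →L[ℝ] ℝ} {z : ℝ × ℝ} (hφ : HasFDerivAt φ φ' z) (u v : ℝ × ℝ) :
    Tendsto (fun i => t i *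
      (φ ((((fl (t i) z).1 : ℝ) + u.1) / t i, (((fl (t i) z).2 : ℝ) + u.2) / t i) -
        φ ((((fl (t i) z).1 : ℝ) + v.1) / t i, (((fl (t i) z).2 : ℝ) + v.2) / t i))) l
      (𝓝 (φ' (u - v))) := by
  have ht0 : ∀ᶠ i in l, 0 < t i := ht.eventually (eventually_gt_atTop 0)
  -- remainder
  have hrem : ∀ a : ℝ × ℝ, Tendsto (fun i => t i *
      (φ ((((fl (t i) z).1 : ℝ) + a.1) / t i, (((fl (t i) z).2 : ℝ) + a.2) / t i) - φ z -
        φ' (((((fl (t i) z).1 : ℝ) + a.1) / t i, (((fl (t i) z).2 : ℝ) + a.2) / t i) - z))) l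
      (𝓝 0) := by
    intro a
    have h1 := (hasFDerivAt_iff_isLittleO.1 hφ).comp_tendsto (fl_tendsto ht z a)
    have h2 : (fun i => ((((fl (t i) z).1 : ℝ) + a.1) / t i,
        (((fl (t i) z).2 : ℝ) + a.2) / t i) - z) =O[l] fun i => (t i)⁻¹ := by
      refine Asymptotics.IsBigO.of_bound (|a.1| + |a.2| + 1) ?_
      filter_upwards [ht0] with i hi
      rw [norm_inv, Real.norm_eq_abs, abs_of_pos hi]
      have h5 : ∀ x b : ℝ, |(((⌊t i * x⌋ : ℤ) : ℝ) + b) / t i - x| ≤ (|b| + 1) * (t i)⁻¹ := by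
        intro x b
        have h4 : ((⌊t i * x⌋ : ℤ) : ℝ) = t i * x - Int.fract (t i * x) := by
          rw [← Int.self_sub_fract]
        have h6 : (((⌊t i * x⌋ : ℤ) : ℝ) + b) / t i - x = (b - Int.fract (t i * x)) * (t i)⁻¹ := by
          rw [h4]
          field_simp
          ring
        rw [h6, abs_mul, abs_of_pos (inv_pos.2 hi)]
        refine mul_le_mul_of_nonneg_right ?_ (inv_pos.2 hi).le
        have h2 := Int.fract_nonneg (t i * x)
        have h3 := Int.fract_lt_one (t i * x)
        calc |b - Int.fract (t i * x)| ≤ |b| + |Int.fract (t i * x)| := abs_sub _ _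
          _ ≤ |b| + 1 := by rw [abs_of_nonneg h2]; linarith
      rw [Prod.norm_def]
      refine max_le ?_ ?_
      · refine (h5 z.1 a.1).trans ?_
        refine mul_le_mul_of_nonneg_right ?_ (inv_pos.2 hi).le
        linarith [abs_nonneg a.2]
      · refine (h5 z.2 a.2).trans ?_
        refine mul_le_mul_of_nonneg_right ?_ (inv_pos.2 hi).le
        linarith [abs_nonneg a.1]
    have h3 := h1.trans_isBigO h2
    have h4 := h3.tendsto_inv_smul_nhds_zero
    refine h4.congr fun i => ?_
    simp only [Function.comp, inv_inv, smul_eq_mul]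
  have h := (hrem u).sub (hrem v)
  rw [sub_zero] at h
  have h' := h.add (tendsto_const_nhds (x := φ' (u - v)))
  rw [zero_add] at h'
  refine h'.congr' ?_
  filter_upwards [ht0] with i hi
  have e1 : φ' (((((fl (t i) z).1 : ℝ) + u.1) / t i, (((fl (t i) z).2 : ℝ) + u.2) / t i) - z) -
      φ' (((((fl (t i) z).1 : ℝ) + v.1) / t i, (((fl (t i) z).2 : ℝ) + v.2) / t i) - z) =
      (t i)⁻¹ * φ' (u - v) := by
    rw [← map_sub, ← smul_eq_mul, ← map_smul]
    congr 1
    ext
    · simp only [Prod.fst_sub, Prod.smul_fst, smul_eq_mul]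
      field_simp
      ring
    · simp only [Prod.snd_sub, Prod.smul_snd, smul_eq_mul]
      field_simp
      ring
  have e2 : t i * ((t i)⁻¹ * φ' (u - v)) = φ' (u - v) := by
    rw [← mul_assoc, mul_inv_cancel₀ hi.ne', one_mul]
  linear_combination (-(t i)) * e1 + (-1 : ℝ) * e2

end Vale.Agent.P159.T1.H407
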