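import Vale.Agent.P159.T1.D.H407.Arm1
import Vale.Agent.P159.T1.H664.ArmDefs

/-!
Row ARM.1 (StmtTilt, StmtTiltDiv) of the direct route, P159 T1.
-/

open Filter Topology MeasureTheory

namespace Vale.Agent.P159.T1.H407

open Vale.Agent.P159.T1.D Vale.Agent.P159.T1.H664

section profile

variable {d : ℝ}

lemma continuous_st : Continuous Real.smoothTransition := Real.smoothTransition.continuous

lemma gp_continuous (d : ℝ) : Continuous (gp d) := by
  unfold gp
  exact (continuous_st.comp (by fun_prop)).mul
    (continuous_const.sub (continuous_st.comp (by fun_prop)))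

lemma gp_nonneg (d x : ℝ) : 0 ≤ gp d x := by
  unfold gp
  exact mul_nonneg (Real.smoothTransition.nonneg _)
    (sub_nonneg.2 (Real.smoothTransition.le_one _))

lemma gp_le_one (d x : ℝ) : gp d x ≤ 1 := by
  unfold gp
  have h1 := Real.smoothTransition.nonneg (4 * x - 1)
  have h2 := Real.smoothTransition.le_one ((x - 4 * d) / (4 * d))
  have h3 := Real.smoothTransition.nonneg ((x - 4 * d) / (4 * d))
  have h4 := Real.smoothTransition.le_one (4 * x - 1)
  nlinarith

lemma gp_left (hd : 0 < d) {x : ℝ} (hx : x ≤ 4 * d) : gp d x = 0 := by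
  unfold gp
  rw [Real.smoothTransition.zero_of_nonpos, zero_mul]
  exact div_nonpos_of_nonpos_of_nonneg (by linarith) (by linarith)

lemma gp_right {x : ℝ} (hx : 1 / 2 ≤ x) : gp d x = 0 := by
  unfold gp
  rw [Real.smoothTransition.one_of_one_le (x := 4 * x - 1) (by linarith), sub_self, mul_zero]

lemma gp_int (d a b : ℝ) : IntervalIntegrable (gp d) volume a b :=
  (gp_continuous d).intervalIntegrable a b

lemma GB_sub (d s t : ℝ) : GB d t - GB d s = ∫ u in s..t, gp d u := by
  unfold GB
  rw [intervalIntegral.integral_interval_sub_left (gp_int d 0 t) (gp_int d 0 s)]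

lemma GB_mono (d : ℝ) : Monotone (GB d) := by
  intro s t hst
  have h := GB_sub d s t
  have h2 : 0 ≤ ∫ u in s..t, gp d u :=
    intervalIntegral.integral_nonneg hst fun u _ => gp_nonneg d u
  linarith

lemma GB_slope (d : ℝ) (s t : ℝ) (hst : s ≤ t) : GB d t - GB d s ≤ t - s := by
  rw [GB_sub]
  have h := intervalIntegral.integral_mono_on hst (gp_int d s t)
    (continuous_const.intervalIntegrable (μ := volume) s t) fun u _ => gp_le_one d u
  simpa using h

lemma GB_left (hd : 0 < d) {x : ℝ} (hx : x ≤ 4 * d) : GB d x = GB d (4 * d) := by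
  have h := GB_sub d x (4 * d)
  have h2 : ∫ u in x..4 * d, gp d u = 0 := by
    refine intervalIntegral.integral_zero_ae (Eventually.of_forall fun u hu => ?_)
    rw [Set.uIoc_of_le hx] at hu
    exact gp_left hd hu.2
  linarith

lemma GB_right {x : ℝ} (hx : 1 / 2 ≤ x) : GB d x = GB d (1 / 2) := by
  have h := GB_sub d (1 / 2) x
  have h2 : ∫ u in (1 / 2 : ℝ)..x, gp d u = 0 := by
    refine intervalIntegral.integral_zero_ae (Eventually.of_forall fun u hu => ?_)
    rw [Set.uIoc_of_le hx] at hu
    exact gp_right hu.1.le
  linarith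

end profile

/-- row ARM.1, first part -/
theorem stmtTilt : StmtTilt := by
  intro Y V hY hV
  refine ⟨1, fun q hq => ⟨q + 3, fun n0 hn r a ha har => ?_⟩⟩
  have hd := ang_pos hq
  refine arm1 (ΓA := fun τ => GA (ang q) (τ - Real.log a))
    (ΓB := fun τ => GB (ang q) (τ - Real.log a)) hq hY hV (n0 := n0) (r := r) (a := a)
    (by omega) ha (by linarith) (by omega) ?_ ?_ ?_ ?_ ?_ ?_ ?_ ?_
  · intro s t hst
    simp only [GA]
    have := GB_mono (ang q) (a := -(t - Real.log a)) (b := -(s - Real.log a)) (by linarith)
    linarith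
  · intro s t hst
    simp only [GA]
    have := GB_slope (ang q) (-(t - Real.log a)) (-(s - Real.log a)) (by linarith)
    linarith
  · intro t ht
    simp only [GA]
    rw [GB_right (d := ang q) (x := -(t - Real.log a)) (by linarith),
      GB_right (d := ang q) (x := -(Real.log a - 1 / 2 - Real.log a)) (by linarith)]
  · intro t ht
    simp only [GA]
    rw [GB_left hd (x := -(t - Real.log a)) (by linarith),
      GB_left hd (x := -(Real.log a - 4 * ang q - Real.log a)) (by linarith)]
  · intro s t hst
    exact GB_mono (ang q) (by linarith)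
  · intro s t hst
    have := GB_slope (ang q) (s - Real.log a) (t - Real.log a) (by linarith)
    linarith
  · intro t ht
    rw [GB_left hd (x := t - Real.log a) (by linarith),
      GB_left hd (x := Real.log a + 4 * ang q - Real.log a) (by linarith)]
  · intro t ht
    rw [GB_right (d := ang q) (x := t - Real.log a) (by linarith),
      GB_right (d := ang q) (x := Real.log a + 1 / 2 - Real.log a) (by linarith)]

/-- row ARM.1, second part -/
theorem stmtTiltDiv : StmtTiltDiv := fun _ _ _ _ _ hq hU =>
  isDiv_Bf' (fun f hf => by have := hU f hf; omega) hq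

end Vale.Agent.P159.T1.H407
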